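import Crest.Agent.R106.Flux.Defs

/-! Row 106, energy flux: approximation of graphs by compactly supported `C²` graphs. -/

set_option autoImplicit false

noncomputable section

namespace Crest.Agent.R106.Flux

open MeasureTheory Set Filter Topology Crest.AnalysisR.VecCalc3 Crest.AnalysisR.PDE.RVM Crest.Agent.R106.U

/-- the smooth positive part -/
def apxA_eta (k : ℕ) (r : ℝ) : ℝ := ∫ s in (0 : ℝ)..r, Real.smoothTransition (((k : ℝ) + 1) * s)

theorem apxA_cont (k : ℕ) : Continuous fun s : ℝ => Real.smoothTransition (((k : ℝ) + 1) * s) :=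
  Real.smoothTransition.continuous.comp (continuous_const.mul continuous_id)

theorem apxA_deriv (k : ℕ) (r : ℝ) :
    HasDerivAt (apxA_eta k) (Real.smoothTransition (((k : ℝ) + 1) * r)) r :=
  ((apxA_cont k).integral_hasStrictDerivAt 0 r).hasDerivAt

theorem apxA_zero (k : ℕ) (r : ℝ) (hr : r ≤ 0) : apxA_eta k r = 0 := by
  unfold apxA_eta
  rw [intervalIntegral.integral_congr (g := fun _ => (0 : ℝ))]
  · simp
  · intro s hs
    rw [uIcc_of_ge hr] at hs
    exact Real.smoothTransition.zero_of_nonpos (mul_nonpos_of_nonneg_of_nonpos (by positivity) hs.2)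

theorem apxA_nonneg (k : ℕ) (r : ℝ) : 0 ≤ apxA_eta k r := by
  rcases le_total r 0 with hr | hr
  · exact (apxA_zero k r hr).ge
  · exact intervalIntegral.integral_nonneg hr fun s _ => Real.smoothTransition.nonneg _

theorem apxA_le (k : ℕ) (r : ℝ) : apxA_eta k r ≤ max r 0 := by
  rcases le_total r 0 with hr | hr
  · rw [apxA_zero k r hr]; exact le_max_right _ _
  · refine le_trans ?_ (le_max_left _ _)
    have := intervalIntegral.integral_mono_on (μ := volume) hr ((apxA_cont k).intervalIntegrable 0 r)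
      (continuous_const (y := (1 : ℝ)).intervalIntegrable 0 r) fun s _ => Real.smoothTransition.le_one _
    simpa [apxA_eta] using this

theorem apxA_ge (k : ℕ) (r : ℝ) : r - 1 / ((k : ℝ) + 1) ≤ apxA_eta k r := by
  have hk0 : (0 : ℝ) < (k : ℝ) + 1 := by positivity
  rcases le_total r (1 / ((k : ℝ) + 1)) with hr | hr
  · linarith [apxA_nonneg k r]
  · have h1 := intervalIntegral.integral_add_adjacent_intervals (μ := volume)
      ((apxA_cont k).intervalIntegrable 0 (1 / ((k : ℝ) + 1)))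
      ((apxA_cont k).intervalIntegrable (1 / ((k : ℝ) + 1)) r)
    have h2 : ∫ s in (1 / ((k : ℝ) + 1))..r, Real.smoothTransition (((k : ℝ) + 1) * s) = r - 1 / ((k : ℝ) + 1) := by
      rw [intervalIntegral.integral_congr (g := fun _ => (1 : ℝ))]
      · simp
      · intro s hs
        rw [uIcc_of_le hr] at hs
        refine Real.smoothTransition.one_of_one_le ?_
        have := hs.1
        rw [div_le_iff₀ hk0] at this
        linarith
    have h3 := apxA_nonneg k (1 / ((k : ℝ) + 1))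
    unfold apxA_eta at h3 ⊢
    linarith

/-- smooth positive parts: `η k r = ∫ s in 0..r, Real.smoothTransition ((k + 1) * s)` -/
theorem exists_eta : ∃ η : ℕ → ℝ → ℝ, (∀ k, ContDiff ℝ 2 (η k)) ∧ (∀ k r, r ≤ 0 → η k r = 0) ∧
    (∀ k r, 0 ≤ η k r ∧ η k r ≤ max r 0 ∧ r - 1 ≤ η k r) ∧ (∀ k r, 0 ≤ deriv (η k) r ∧ deriv (η k) r ≤ 1) ∧
    (∀ (r : ℕ → ℝ) (a : ℝ), 0 < a → Tendsto r atTop (𝓝 a) →
      Tendsto (fun k => η k (r k)) atTop (𝓝 a) ∧ Tendsto (fun k => deriv (η k) (r k)) atTop (𝓝 1)) := by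
  refine ⟨apxA_eta, fun k => ?_, apxA_zero, fun k r => ⟨apxA_nonneg k r, apxA_le k r, ?_⟩, fun k r => ?_,
    fun r a ha hr => ⟨?_, ?_⟩⟩
  · have hd : deriv (apxA_eta k) = fun r => Real.smoothTransition (((k : ℝ) + 1) * r) :=
      funext fun r => (apxA_deriv k r).deriv
    have h2 : (2 : WithTop ℕ∞) = 1 + 1 := by norm_num
    rw [h2, contDiff_succ_iff_deriv]
    refine ⟨fun r => (apxA_deriv k r).differentiableAt, by simp, ?_⟩
    rw [hd]
    exact Real.smoothTransition.contDiff.comp (contDiff_const.mul contDiff_id)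
  · have h1 := apxA_ge k r
    have h2 : 1 / ((k : ℝ) + 1) ≤ 1 := by
      rw [div_le_one (by positivity)]; linarith [(Nat.cast_nonneg k : (0 : ℝ) ≤ k)]
    linarith
  · rw [(apxA_deriv k r).deriv]
    exact ⟨Real.smoothTransition.nonneg _, Real.smoothTransition.le_one _⟩
  · have h1 : Tendsto (fun k : ℕ => r k - 1 / ((k : ℝ) + 1)) atTop (𝓝 a) := by
      simpa using hr.sub tendsto_one_div_add_atTop_nhds_zero_nat
    have h2 : Tendsto (fun k : ℕ => max (r k) 0) atTop (𝓝 a) := by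
      have := hr.max (tendsto_const_nhds (x := (0 : ℝ)))
      rwa [max_eq_left ha.le] at this
    exact tendsto_of_tendsto_of_tendsto_of_le_of_le h1 h2 (fun k => apxA_ge k _) fun k => apxA_le k _
  · have h1 : Tendsto (fun k : ℕ => r k - 1 / ((k : ℝ) + 1)) atTop (𝓝 a) := by
      simpa using hr.sub tendsto_one_div_add_atTop_nhds_zero_nat
    refine tendsto_const_nhds.congr' ?_
    filter_upwards [h1.eventually (lt_mem_nhds ha)] with k hk
    rw [(apxA_deriv k _).deriv, Real.smoothTransition.one_of_one_le]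
    have hk0 : (0 : ℝ) < (k : ℝ) + 1 := by positivity
    have : 1 / ((k : ℝ) + 1) ≤ r k := by linarith
    rw [div_le_iff₀ hk0] at this
    linarith

theorem apb_rho (x : R3) {e : ℝ} (he : 0 < e) (y : R3) :
    HasFDerivAt (fun y : R3 => √(‖y - x‖ ^ 2 + e)) (innerSL ℝ ((√(‖y - x‖ ^ 2 + e))⁻¹ • (y - x))) y := by
  have h1 := (((hasFDerivAt_id y).sub_const x).norm_sq).add_const e
  have h0 : ‖y - x‖ ^ 2 + e ≠ 0 := by positivity
  have h2 := h1.sqrt h0
  have h3 : √(‖y - x‖ ^ 2 + e) ≠ 0 := (Real.sqrt_pos.2 (by positivity)).ne'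
  refine h2.congr_fderiv ?_
  ext v
  simp only [id, two_smul, map_smul, ContinuousLinearMap.comp_id, smul_apply, add_apply, smul_eq_mul]
  field_simp
  ring

theorem apb_le (x y : R3) {e : ℝ} (he : 0 < e) : ‖y - x‖ ≤ √(‖y - x‖ ^ 2 + e) :=
  Real.le_sqrt_of_sq_le (by linarith)

/-- cone: `ψ k y = η k (s - √(‖y - x‖² + 1 / (k + 1)²))` -/
theorem approx_cone (s : ℝ) (x : R3) : ∃ ψ : ℕ → R3 → ℝ, (∀ k, ContDiff ℝ 2 (ψ k)) ∧ (∀ k, HasCompactSupport (ψ k)) ∧
    (∀ k y, 0 ≤ ψ k y ∧ ψ k y ≤ max s 0) ∧ (∀ k y, ‖fderiv ℝ (ψ k) y‖ ≤ 1) ∧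
    ∀ y ∈ Metric.ball x s \ {x}, Tendsto (fun k => ψ k y) atTop (𝓝 (s - ‖x - y‖)) ∧
      Tendsto (fun k => fderiv ℝ (ψ k) y) atTop (𝓝 (innerSL ℝ (‖x - y‖⁻¹ • (x - y)))) := by
  obtain ⟨η, hc, hz, hb, hd, hl⟩ := exists_eta
  set e : ℕ → ℝ := fun k => 1 / ((k : ℝ) + 1) ^ 2 with he
  have hepos : ∀ k, 0 < e k := fun k => by simp only [he]; positivity
  have hfd : ∀ k y, HasFDerivAt (fun y : R3 => η k (s - √(‖y - x‖ ^ 2 + e k)))
      (deriv (η k) (s - √(‖y - x‖ ^ 2 + e k)) • innerSL ℝ ((√(‖y - x‖ ^ 2 + e k))⁻¹ • (x - y))) y := by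
    intro k y
    have h1 := (apb_rho x (hepos k) y).const_sub s
    have h2 : HasDerivAt (η k) (deriv (η k) (s - √(‖y - x‖ ^ 2 + e k))) (s - √(‖y - x‖ ^ 2 + e k)) :=
      ((hc k).differentiable (by norm_num) _).hasDerivAt
    have h3 := h2.comp_hasFDerivAt y h1
    refine h3.congr_fderiv ?_
    rw [← map_neg, ← smul_neg, neg_sub]
  have hlim : ∀ y : R3, Tendsto (fun k => √(‖y - x‖ ^ 2 + e k)) atTop (𝓝 ‖x - y‖) := by
    intro y
    have h1 : Tendsto e atTop (𝓝 0) := by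
      have := (tendsto_one_div_add_atTop_nhds_zero_nat (𝕜 := ℝ)).pow 2
      simpa only [he, div_pow, one_pow, ne_eq, OfNat.ofNat_ne_zero, not_false_eq_true, zero_pow] using this
    have h2 := (h1.const_add (‖y - x‖ ^ 2)).sqrt
    rw [add_zero, Real.sqrt_sq (norm_nonneg _)] at h2
    rwa [norm_sub_rev x y]
  refine ⟨fun k y => η k (s - √(‖y - x‖ ^ 2 + e k)), fun k => ?_, fun k => ?_, fun k y => ⟨(hb k _).1, ?_⟩,
    fun k y => ?_, fun y hy => ?_⟩
  · refine (hc k).comp (contDiff_const.sub (ContDiff.sqrt ?_ fun y => ?_))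
    · exact ((contDiff_norm_sq ℝ).comp (contDiff_id.sub contDiff_const)).add contDiff_const
    · have := hepos k; positivity
  · refine HasCompactSupport.intro (isCompact_closedBall x s) fun y hy => hz k _ ?_
    rw [Metric.mem_closedBall, dist_eq_norm, not_le] at hy
    linarith [apb_le x y (hepos k)]
  · exact (hb k _).2.1.trans (max_le_max (sub_le_self _ (Real.sqrt_nonneg _)) le_rfl)
  · rw [(hfd k y).fderiv, norm_smul, innerSL_apply_norm, norm_smul, Real.norm_of_nonneg (hd k _).1,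
      Real.norm_of_nonneg (inv_nonneg.2 (Real.sqrt_nonneg _)), norm_sub_rev x y]
    have h1 : 0 < √(‖y - x‖ ^ 2 + e k) := Real.sqrt_pos.2 (by have := hepos k; positivity)
    have h2 : (√(‖y - x‖ ^ 2 + e k))⁻¹ * ‖y - x‖ ≤ 1 := by
      rw [inv_mul_le_iff₀ h1, mul_one]; exact apb_le x y (hepos k)
    exact mul_le_one₀ (hd k _).2 (by positivity) h2
  · have hlt : 0 < s - ‖x - y‖ := by
      have := hy.1; rw [Metric.mem_ball, dist_eq_norm, norm_sub_rev] at this; linarith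
    have hne : ‖x - y‖ ≠ 0 := norm_ne_zero_iff.2 (sub_ne_zero.2 fun h => hy.2 h.symm)
    obtain ⟨h1, h2⟩ := hl (fun k => s - √(‖y - x‖ ^ 2 + e k)) _ hlt ((hlim y).const_sub s)
    refine ⟨h1, ?_⟩
    simp only [fun k => (hfd k y).fderiv]
    have h3 := ((innerSL ℝ (E := R3)).continuous.tendsto _).comp (((hlim y).inv₀ hne).smul_const (x - y))
    simpa only [one_smul, Function.comp_def] using h2.smul h3

theorem ag_norm_le (y : R3) : ‖y‖ ≤ gam y := Real.le_sqrt_of_sq_le (by linarith)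

theorem ag_contDiff : ContDiff ℝ 2 gam :=
  (contDiff_const.add (contDiff_norm_sq ℝ)).sqrt fun y => by positivity

theorem ag_lip : LipschitzWith 1 gam := by
  refine LipschitzWith.of_le_add fun x y => ?_
  have h1 : ‖x‖ ≤ ‖y‖ + dist x y := by rw [dist_eq_norm]; exact norm_le_norm_add_norm_sub' x y
  have h2 := ag_norm_le y
  have h3 : gam y ^ 2 = 1 + ‖y‖ ^ 2 := Real.sq_sqrt (by positivity)
  have h4 := dist_nonneg (x := x) (y := y)
  have h5 := norm_nonneg y
  refine Real.sqrt_le_iff.2 ⟨by linarith, ?_⟩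
  nlinarith [norm_nonneg x, mul_le_mul_of_nonneg_right h2 h4, pow_le_pow_left₀ (norm_nonneg x) h1 2]

/-- general graph: with `c k y = k - √(1 + ‖y‖²)` put `φ₁ = φ - η k (φ - c k)` (`≤ c k + 1`, equal to `φ` near `y` once `φ y < c k y`),
`φ₂ = T' - η k (T' - φ₁)` (`≤ T'`, `≤ φ₁ + 1`), `ψ k = η k φ₂` (zero for `k + 2 ≤ ‖y‖`); each gradient is a convex combination of
covectors of norm `≤ 1`. -/
theorem approx_graph {T' : ℝ} (h0 : 0 ≤ T') {φ : R3 → ℝ} (hφ : ContDiff ℝ 2 φ) (h1 : ∀ y, ‖fderiv ℝ φ y‖ ≤ 1) :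
    ∃ ψ : ℕ → R3 → ℝ, (∀ k, ContDiff ℝ 2 (ψ k)) ∧ (∀ k, HasCompactSupport (ψ k)) ∧
    (∀ k y, 0 ≤ ψ k y ∧ ψ k y ≤ T') ∧ (∀ k y, ‖fderiv ℝ (ψ k) y‖ ≤ 1) ∧
    ∀ y, 0 < φ y → φ y < T' → Tendsto (fun k => ψ k y) atTop (𝓝 (φ y)) ∧
      Tendsto (fun k => fderiv ℝ (ψ k) y) atTop (𝓝 (fderiv ℝ φ y)) := by
  obtain ⟨η, hc, hz, hb, hd, hl⟩ := exists_eta
  let a : ℕ → R3 → ℝ := fun k y => φ y - ((k : ℝ) - gam y)
  let p : ℕ → R3 → ℝ := fun k y => φ y - η k (a k y)
  let q : ℕ → R3 → ℝ := fun k y => T' - η k (T' - p k y)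
  have ca : ∀ k, ContDiff ℝ 2 (a k) := fun k => hφ.sub (contDiff_const.sub ag_contDiff)
  have cp : ∀ k, ContDiff ℝ 2 (p k) := fun k => hφ.sub ((hc k).comp (ca k))
  have cq : ∀ k, ContDiff ℝ 2 (q k) := fun k => contDiff_const.sub ((hc k).comp (contDiff_const.sub (cp k)))
  have dη : ∀ k r, HasDerivAt (η k) (deriv (η k) r) r := fun k r =>
    ((hc k).differentiable (by norm_num) r).hasDerivAt
  have dφ : ∀ y, HasFDerivAt φ (fderiv ℝ φ y) y := fun y => (hφ.differentiable (by norm_num) y).hasFDerivAt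
  have dg : ∀ y, HasFDerivAt gam (fderiv ℝ gam y) y := fun y =>
    (ag_contDiff.differentiable (by norm_num) y).hasFDerivAt
  have ng : ∀ y, ‖fderiv ℝ gam y‖ ≤ 1 := fun y => by simpa using norm_fderiv_le_of_lipschitz ℝ ag_lip (x₀ := y)
  have dp : ∀ k y, HasFDerivAt (p k)
      ((1 - deriv (η k) (a k y)) • fderiv ℝ φ y - deriv (η k) (a k y) • fderiv ℝ gam y) y := fun k y => by
    have h2 : HasFDerivAt (a k) (fderiv ℝ φ y + fderiv ℝ gam y) y := by
      have := (dφ y).sub ((dg y).const_sub (k : ℝ))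
      rw [sub_neg_eq_add] at this
      exact this
    have := (dφ y).sub ((dη k (a k y)).comp_hasFDerivAt y h2)
    refine this.congr_fderiv ?_
    rw [smul_add, sub_smul, one_smul]; abel
  have dψ : ∀ k y, HasFDerivAt (fun y => η k (q k y)) ((deriv (η k) (q k y) * deriv (η k) (T' - p k y)) •
      ((1 - deriv (η k) (a k y)) • fderiv ℝ φ y - deriv (η k) (a k y) • fderiv ℝ gam y)) y := fun k y => by
    have h2 := ((dη k (T' - p k y)).comp_hasFDerivAt y ((dp k y).const_sub T')).const_sub T'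
    have := (dη k (q k y)).comp_hasFDerivAt y h2
    refine this.congr_fderiv ?_
    simp only [smul_neg, neg_neg, mul_smul]
  refine ⟨fun k y => η k (q k y), fun k => (hc k).comp (cq k), fun k => ?_, fun k y => ⟨(hb _ _).1, ?_⟩,
    fun k y => ?_, fun y y0 y1 => ?_⟩
  · refine HasCompactSupport.intro (isCompact_closedBall (0 : R3) (k + 2)) fun y hy => hz _ _ ?_
    rw [mem_closedBall_zero_iff, not_le] at hy
    have e1 := (hb k (T' - p k y)).2.2
    have e2 := (hb k (a k y)).2.2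
    have e3 := ag_norm_le y
    simp only [q, p, a] at *
    linarith
  · refine (hb _ _).2.1.trans (max_le ?_ h0)
    have := (hb k (T' - p k y)).1
    simp only [q]; linarith
  · rw [(dψ k y).fderiv]
    have e1 := hd k (q k y)
    have e2 := hd k (T' - p k y)
    have e3 := hd k (a k y)
    have e4 : ‖(1 - deriv (η k) (a k y)) • fderiv ℝ φ y - deriv (η k) (a k y) • fderiv ℝ gam y‖ ≤ 1 := by
      refine (norm_sub_le _ _).trans ?_
      rw [norm_smul, norm_smul, Real.norm_of_nonneg (by linarith), Real.norm_of_nonneg e3.1]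
      nlinarith [mul_le_mul_of_nonneg_left (h1 y) (sub_nonneg.2 e3.2), mul_le_mul_of_nonneg_left (ng y) e3.1]
    rw [norm_smul, Real.norm_of_nonneg (mul_nonneg e1.1 e2.1)]
    exact mul_le_one₀ (mul_le_one₀ e1.2 e2.1 e2.2) (norm_nonneg _) e4
  · have ev : ∀ᶠ k : ℕ in atTop, a k y < 0 := by
      filter_upwards [tendsto_natCast_atTop_atTop.eventually_gt_atTop (φ y + gam y)] with k hk
      simp only [a]; linarith
    have ep : ∀ᶠ k : ℕ in atTop, T' - φ y = T' - p k y := ev.mono fun k hk => by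
      simp only [p, hz k _ hk.le, sub_zero]
    have ed : ∀ᶠ k : ℕ in atTop, (0 : ℝ) = deriv (η k) (a k y) := ev.mono fun k hk => by
      have : η k =ᶠ[𝓝 (a k y)] fun _ => 0 := (eventually_lt_nhds hk).mono fun r hr => hz k r hr.le
      rw [this.deriv_eq, deriv_const]
    obtain ⟨t1, t2⟩ := hl (fun k => T' - p k y) (T' - φ y) (by linarith) (tendsto_const_nhds.congr' ep)
    have t3 : Tendsto (fun k => q k y) atTop (𝓝 (φ y)) := by
      have := t1.const_sub T'
      rwa [sub_sub_cancel] at this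
    obtain ⟨t4, t5⟩ := hl (fun k => q k y) (φ y) y0 t3
    have t6 : Tendsto (fun k => deriv (η k) (a k y)) atTop (𝓝 0) := tendsto_const_nhds.congr' ed
    refine ⟨t4, ?_⟩
    simp only [fun k => (dψ k y).fderiv]
    have := (t5.mul t2).smul (((t6.const_sub 1).smul_const (fderiv ℝ φ y)).sub (t6.smul_const (fderiv ℝ gam y)))
    simpa using this

end Crest.Agent.R106.Flux
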