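import Crest.Agent.R106.U.Max

/-! Row 106, energy flux through space-like or null graphs: definitions and pointwise facts. -/

set_option autoImplicit false

noncomputable section

namespace Crest.Agent.R106.Flux

open MeasureTheory Set Filter Topology Crest.AnalysisR.VecCalc3 Crest.AnalysisR.PDE.RVM Crest.Agent.R106.U

/-- the energy `√(1 + ‖v‖²)` of a particle -/
def gam (v : R3) : ℝ := √(1 + ‖v‖ ^ 2)

/-- total energy of the datum -/
def energy0 (f₀ : R3 → R3 → ℝ) (E₀ B₀ : R3 → R3) : ℝ :=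
  (∫ z : R3 × R3, gam z.2 * f₀ z.1 z.2) + ∫ x, (‖E₀ x‖ ^ 2 + ‖B₀ x‖ ^ 2) / 2

/-- kinetic energy flux density through a graph with slope `p` -/
def kin (f : ℝ → R3 → R3 → ℝ) (t : ℝ) (p : R3 →L[ℝ] ℝ) (y v : R3) : ℝ := gam v * (1 - p (relVel v)) * f t y v

/-- field energy flux density through a graph with slope `p` -/
def fld (E B : ℝ → R3 → R3) (t : ℝ) (p : R3 →L[ℝ] ℝ) (y : R3) : ℝ :=
  (‖E t y‖ ^ 2 + ‖B t y‖ ^ 2) / 2 - p (cross3 (E t y) (B t y))

theorem one_le_gam (v : R3) : 1 ≤ gam v := by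
  exact Real.one_le_sqrt.2 (le_add_of_nonneg_right (sq_nonneg _))

theorem contDiff_gam : ContDiff ℝ 1 gam := by
  exact (contDiff_const.add (contDiff_norm_sq ℝ)).sqrt fun v => by positivity

/-- `∇ γ = u` -/
theorem pderiv_gam (v : R3) (i : Fin 3) : pderiv gam i v = relVel v i := by
  have h0 : (1 : ℝ) + ‖v‖ ^ 2 ≠ 0 := by positivity
  have h1 : HasFDerivAt (fun w : R3 => 1 + ‖w‖ ^ 2) (2 • innerSL ℝ v) v := (hasStrictFDerivAt_norm_sq v).hasFDerivAt.const_add 1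
  have h2 : HasFDerivAt gam _ v := h1.sqrt h0
  have h3 : 0 < √(1 + ‖v‖ ^ 2) := by positivity
  simp only [pderiv, h2.fderiv, relVel]
  simp [EuclideanSpace.inner_single_right]
  field_simp

theorem contDiff_cross3 {X : Type*} [NormedAddCommGroup X] [NormedSpace ℝ X] {a b : X → R3} {s : Set X}
    (ha : ContDiffOn ℝ 1 a s) (hb : ContDiffOn ℝ 1 b s) : ContDiffOn ℝ 1 (fun x => cross3 (a x) (b x)) s := by
  have ha' := fun i => contDiffOn_euclidean.1 ha i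
  have hb' := fun i => contDiffOn_euclidean.1 hb i
  refine contDiffOn_euclidean.2 fun i => ?_
  fin_cases i
  · exact ((ha' 1).mul (hb' 2)).sub ((ha' 2).mul (hb' 1))
  · exact ((ha' 2).mul (hb' 0)).sub ((ha' 0).mul (hb' 2))
  · exact ((ha' 0).mul (hb' 1)).sub ((ha' 1).mul (hb' 0))

theorem kin_nonneg {f : ℝ → R3 → R3 → ℝ} {t : ℝ} {p : R3 →L[ℝ] ℝ} {y v : R3} (hp : ‖p‖ ≤ 1) (hf : 0 ≤ f t y v) :
    0 ≤ kin f t p y v := by
  have h1 : p (relVel v) ≤ 1 := (le_abs_self _).trans <| (p.le_opNorm _).trans <|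
    mul_le_one₀ hp (norm_nonneg _) (norm_relVel_le v)
  exact mul_nonneg (mul_nonneg (zero_le_one.trans (one_le_gam v)) (sub_nonneg.2 h1)) hf

theorem fld_nonneg {E B : ℝ → R3 → R3} {t : ℝ} {p : R3 →L[ℝ] ℝ} {y : R3} (hp : ‖p‖ ≤ 1) : 0 ≤ fld E B t p y := by
  have h1 : p (cross3 (E t y) (B t y)) ≤ ‖E t y‖ * ‖B t y‖ := (le_abs_self _).trans <| (p.le_opNorm _).trans <|
    (mul_le_of_le_one_left (norm_nonneg _) hp).trans (norm_cross3_le _ _)
  unfold fld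
  nlinarith [sq_nonneg (‖E t y‖ - ‖B t y‖)]

/-- the good components: `‖E‖² + ‖B‖² - 2 n·(E × B) = ‖E + n × B‖² + (n·B)²` for a unit vector `n` -/
theorem good_B {n : R3} (hn : ‖n‖ = 1) (E B : R3) :
    ‖E‖ ^ 2 + ‖B‖ ^ 2 - 2 * inner ℝ n (cross3 E B) = ‖E + cross3 n B‖ ^ 2 + inner ℝ n B ^ 2 := by
  have h : n 0 ^ 2 + n 1 ^ 2 + n 2 ^ 2 = 1 := by
    have := EuclideanSpace.real_norm_sq_eq n
    rw [hn, Fin.sum_univ_three] at this
    linarith
  simp only [EuclideanSpace.real_norm_sq_eq, Fin.sum_univ_three, PiLp.inner_apply, cross3, PiLp.add_apply, RCLike.inner_apply,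
    conj_trivial, Matrix.cons_val_zero, Matrix.cons_val_one, Matrix.cons_val]
  linear_combination (-(B 0 ^ 2 + B 1 ^ 2 + B 2 ^ 2)) * h

/-- the good components: `‖E‖² + ‖B‖² - 2 n·(E × B) = ‖B - n × E‖² + (n·E)²` for a unit vector `n` -/
theorem good_E {n : R3} (hn : ‖n‖ = 1) (E B : R3) :
    ‖E‖ ^ 2 + ‖B‖ ^ 2 - 2 * inner ℝ n (cross3 E B) = ‖B - cross3 n E‖ ^ 2 + inner ℝ n E ^ 2 := by
  have h : n 0 ^ 2 + n 1 ^ 2 + n 2 ^ 2 = 1 := by
    have := EuclideanSpace.real_norm_sq_eq n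
    rw [hn, Fin.sum_univ_three] at this
    linarith
  simp only [EuclideanSpace.real_norm_sq_eq, Fin.sum_univ_three, PiLp.inner_apply, cross3, PiLp.sub_apply, RCLike.inner_apply,
    conj_trivial, Matrix.cons_val_zero, Matrix.cons_val_one, Matrix.cons_val]
  linear_combination (-(E 0 ^ 2 + E 1 ^ 2 + E 2 ^ 2)) * h

end Crest.Agent.R106.Flux
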