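import Crest.Agent.R106.Flux.Kin

/-! Row 106, energy flux: the field part along the family of graphs `t = r ψ(y)`. -/

set_option autoImplicit false

noncomputable section

namespace Crest.Agent.R106.Flux

open MeasureTheory Set Filter Topology Crest.AnalysisR.VecCalc3 Crest.AnalysisR.PDE.RVM Crest.Agent.R106.U

variable {T T' : ℝ} {f₀ : R3 → R3 → ℝ} {E₀ B₀ : R3 → R3} {f : ℝ → R3 → R3 → ℝ} {E B : ℝ → R3 → R3} {ψ : R3 → ℝ}

theorem flda_chain {g : ℝ × R3 → ℝ} {r : ℝ} {y : R3} (hg : DifferentiableAt ℝ g (r * ψ y, y))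
    (hψ : DifferentiableAt ℝ ψ y) :
    HasDerivAt (fun s => g (s * ψ y, y)) (deriv (fun s => g (s, y)) (r * ψ y) * ψ y) r ∧
      ∀ j : Fin 3, pderiv (fun z => g (r * ψ z, z)) j y =
        r * pderiv ψ j y * deriv (fun s => g (s, y)) (r * ψ y) + pderiv (fun z => g (r * ψ y, z)) j y := by
  have h1 : HasDerivAt (fun s : ℝ => g (s, y)) (fderiv ℝ g (r * ψ y, y) (1, 0)) (r * ψ y) :=
    hg.hasFDerivAt.comp_hasDerivAt (r * ψ y) ((hasDerivAt_id _).prodMk (hasDerivAt_const _ y))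
  have h2 : HasFDerivAt (fun z : R3 => g (r * ψ y, z))
      ((fderiv ℝ g (r * ψ y, y)).comp (ContinuousLinearMap.inr ℝ ℝ R3)) y :=
    hg.hasFDerivAt.comp y (hasFDerivAt_prodMk_right (r * ψ y) y)
  have h3 : HasFDerivAt (fun z : R3 => g (r * ψ z, z))
      ((fderiv ℝ g (r * ψ y, y)).comp ((r • fderiv ℝ ψ y).prod (ContinuousLinearMap.id ℝ R3))) y :=
    HasFDerivAt.comp (f := fun z : R3 => (r * ψ z, z)) y hg.hasFDerivAt
      ((hψ.hasFDerivAt.const_mul r).prodMk (hasFDerivAt_id y))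
  refine ⟨?_, fun j => ?_⟩
  · rw [h1.deriv]
    have h4 : HasDerivAt (fun s : ℝ => s * ψ y) (ψ y) r := by simpa using (hasDerivAt_id r).mul_const (ψ y)
    exact HasDerivAt.comp (h₂ := fun s : ℝ => g (s, y)) r h1 h4
  · unfold pderiv
    rw [h1.deriv, h2.fderiv, h3.fderiv]
    have e : ((r * fderiv ℝ ψ y (EuclideanSpace.single j 1), EuclideanSpace.single j 1) : ℝ × R3) =
        (r * fderiv ℝ ψ y (EuclideanSpace.single j 1)) • ((1, 0) : ℝ × R3) + (0, EuclideanSpace.single j 1) := by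
      simp
    simp only [ContinuousLinearMap.comp_apply, ContinuousLinearMap.prod_apply, smul_apply,
      smul_eq_mul, ContinuousLinearMap.id_apply, ContinuousLinearMap.inr_apply]
    rw [e, map_add, map_smul, smul_eq_mul]

/-- Pointwise derivative in `r`. If `ψ y = 0` both sides vanish (`fderiv ℝ ψ y = 0`). Otherwise chain rule:
`curl (E (r ψ y) y) = curl E + r ∇ψ × ∂ₜE`, Ampère and Faraday from `EquationsHoldAt`; expand in coordinates. -/
theorem fld_pt (h : IsClassicalSolutionOn T f₀ E₀ B₀ f E B) (hT : T' < T) (hψ : ContDiff ℝ 1 ψ)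
    (h0 : ∀ y, 0 ≤ ψ y ∧ ψ y ≤ T') {r : ℝ} (hr : r ∈ Ioo (0 : ℝ) 1) (y : R3) :
    deriv (fun s => fld E B (s * ψ y) (s • fderiv ℝ ψ y) y) r =
      ψ y * (inner ℝ (E (r * ψ y) y) (curl3 (fun y => B (r * ψ y) y) y) -
          inner ℝ (B (r * ψ y) y) (curl3 (fun y => E (r * ψ y) y) y)) -
        fderiv ℝ ψ y (cross3 (E (r * ψ y) y) (B (r * ψ y) y)) -
        ψ y * inner ℝ (E (r * ψ y) y) (currentDensity f (r * ψ y) y) := by
  rcases (h0 y).1.eq_or_lt with hy | hy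
  · have hm : IsLocalMin ψ y := Filter.Eventually.of_forall fun z => by rw [← hy]; exact (h0 z).1
    rw [hm.fderiv_eq_zero, ← hy]
    simp
  have ht0 : 0 < r * ψ y := mul_pos hr.1 hy
  have htT : r * ψ y < T := by nlinarith [(h0 y).2, hr.2]
  have hn : (Ico 0 T ×ˢ (univ : Set R3)) ∈ 𝓝 ((r * ψ y, y) : ℝ × R3) :=
    prod_mem_nhds (Ico_mem_nhds ht0 htT) univ_mem
  have hE := (h.2.1.contDiffAt hn).differentiableAt one_ne_zero
  have hB := (h.2.2.1.contDiffAt hn).differentiableAt one_ne_zero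
  have hp := hψ.differentiable one_ne_zero y
  have cE := fun i : Fin 3 => flda_chain (g := fun p => E p.1 p.2 i)
    ((EuclideanSpace.proj i : R3 →L[ℝ] ℝ).differentiableAt.comp _ hE) hp
  have cB := fun i : Fin 3 => flda_chain (g := fun p => B p.1 p.2 i)
    ((EuclideanSpace.proj i : R3 →L[ℝ] ℝ).differentiableAt.comp _ hB) hp
  obtain ⟨-, qA, qF, -, -⟩ := h.2.2.2.2.2.2.1 _ ht0 htT y
  have e : (fun s => fld E B (s * ψ y) (s • fderiv ℝ ψ y) y) = fun s =>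
      (E (s * ψ y) y 0 * E (s * ψ y) y 0 + E (s * ψ y) y 1 * E (s * ψ y) y 1 + E (s * ψ y) y 2 * E (s * ψ y) y 2 +
        (B (s * ψ y) y 0 * B (s * ψ y) y 0 + B (s * ψ y) y 1 * B (s * ψ y) y 1 + B (s * ψ y) y 2 * B (s * ψ y) y 2)) / 2 -
      s * ((E (s * ψ y) y 1 * B (s * ψ y) y 2 - E (s * ψ y) y 2 * B (s * ψ y) y 1) * pderiv ψ 0 y +
        (E (s * ψ y) y 2 * B (s * ψ y) y 0 - E (s * ψ y) y 0 * B (s * ψ y) y 2) * pderiv ψ 1 y +
        (E (s * ψ y) y 0 * B (s * ψ y) y 1 - E (s * ψ y) y 1 * B (s * ψ y) y 0) * pderiv ψ 2 y) := by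
    funext s
    simp only [fld, smul_apply, smul_eq_mul, maxa_fd ψ y, EuclideanSpace.real_norm_sq_eq,
      Fin.sum_univ_three]
    simp [cross3]
    ring
  have e0 := (cE 0).1
  have e1 := (cE 1).1
  have e2 := (cE 2).1
  have b0 := (cB 0).1
  have b1 := (cB 1).1
  have b2 := (cB 2).1
  have D := ((((((e0.fun_mul e0).fun_add (e1.fun_mul e1)).fun_add (e2.fun_mul e2)).fun_add
    (((b0.fun_mul b0).fun_add (b1.fun_mul b1)).fun_add (b2.fun_mul b2))).div_const 2).fun_sub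
    ((hasDerivAt_id' r).fun_mul (((((e1.fun_mul b2).fun_sub (e2.fun_mul b1)).mul_const (pderiv ψ 0 y)).fun_add
      (((e2.fun_mul b0).fun_sub (e0.fun_mul b2)).mul_const (pderiv ψ 1 y))).fun_add
      (((e0.fun_mul b1).fun_sub (e1.fun_mul b0)).mul_const (pderiv ψ 2 y))))).deriv
  rw [e]
  refine D.trans ?_
  have a0 := qA 0
  have a1 := qA 1
  have a2 := qA 2
  have f0 := qF 0
  have f1 := qF 1
  have f2 := qF 2
  have pE := fun i j => (cE i).2 j
  have pB := fun i j => (cB i).2 j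
  simp only [curl3, Matrix.cons_val_zero, Matrix.cons_val_one, Matrix.cons_val] at a0 a1 a2 f0 f1 f2
  simp only [maxa_fd ψ y, PiLp.inner_apply, Fin.sum_univ_three, curl3, cross3, pE, pB]
  simp only [Matrix.cons_val_zero, Matrix.cons_val_one, Matrix.cons_val, RCLike.inner_apply, conj_trivial]
  linear_combination (ψ y * E (r * ψ y) y 0) * a0 + (ψ y * E (r * ψ y) y 1) * a1 + (ψ y * E (r * ψ y) y 2) * a2 +
    (ψ y * B (r * ψ y) y 0) * f0 + (ψ y * B (r * ψ y) y 1) * f1 + (ψ y * B (r * ψ y) y 2) * f2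

/-- `energy_cont`, `energy_deriv` (`T := ρ`, `T' := 1`, `K := tsupport ψ`), `fld_pt`, `poynting`; the current is continuous in `y`
(`cur_le`). -/
theorem fld_deriv (h : IsClassicalSolutionOn T f₀ E₀ B₀ f E B) (hT : T' < T) (hψ : ContDiff ℝ 2 ψ)
    (hc : HasCompactSupport ψ) (h0 : ∀ y, 0 ≤ ψ y ∧ ψ y ≤ T') :
    ContinuousOn (fun r => ∫ y, (fld E B (r * ψ y) (r • fderiv ℝ ψ y) y - fld E B 0 0 y)) (Icc 0 1) ∧
    Integrable (fun y => fld E B (ψ y) (fderiv ℝ ψ y) y - fld E B 0 0 y) ∧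
    ∀ r ∈ Ioo (0 : ℝ) 1, HasDerivAt (fun r => ∫ y, (fld E B (r * ψ y) (r • fderiv ℝ ψ y) y - fld E B 0 0 y))
      (-∫ y, ψ y * inner ℝ (E (r * ψ y) y) (currentDensity f (r * ψ y) y)) r := by
  have hT0 : 0 ≤ T' := (h0 0).1.trans (h0 0).2
  obtain ⟨ρ, hρ, hm⟩ : ∃ ρ : ℝ, 1 < ρ ∧ ∀ r ∈ Ico 0 ρ, ∀ y, r * ψ y ∈ Ico 0 T := by
    refine ⟨(T + 1) / (T' + 1), (one_lt_div (by linarith)).2 (by linarith), fun r hr y => ⟨mul_nonneg hr.1 (h0 y).1, ?_⟩⟩
    have h1 := (lt_div_iff₀ (by linarith : 0 < T' + 1)).1 hr.2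
    have h2 := mul_le_mul_of_nonneg_left (h0 y).2 hr.1
    by_contra h3
    have h4 : r < 1 := by linarith
    nlinarith [hr.1]
  have hψ1 : ContDiff ℝ 1 ψ := hψ.of_le (by norm_num)
  have hd : ContDiff ℝ 1 (fderiv ℝ ψ) := hψ.fderiv_right (by norm_num)
  have hΦ : ContDiff ℝ 1 fun p : ℝ × R3 => (p.1 * ψ p.2, p.2) := (contDiff_fst.mul (hψ1.comp contDiff_snd)).prodMk contDiff_snd
  have hΦm : MapsTo (fun p : ℝ × R3 => (p.1 * ψ p.2, p.2)) (Ico 0 ρ ×ˢ univ) (Ico 0 T ×ˢ univ) :=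
    fun p hp => ⟨hm _ hp.1 _, trivial⟩
  have he : ContDiffOn ℝ 1 (fun p : ℝ × R3 => E (p.1 * ψ p.2) p.2) (Ico 0 ρ ×ˢ univ) := h.2.1.comp hΦ.contDiffOn hΦm
  have hb : ContDiffOn ℝ 1 (fun p : ℝ × R3 => B (p.1 * ψ p.2) p.2) (Ico 0 ρ ×ˢ univ) := h.2.2.1.comp hΦ.contDiffOn hΦm
  have hz : (0 : ℝ) ∈ Ico 0 T := ⟨le_rfl, hT0.trans_lt hT⟩
  have he0 : ContDiff ℝ 1 fun p : ℝ × R3 => E 0 p.2 := (slice_space h.2.1 hz).comp contDiff_snd
  have hb0 : ContDiff ℝ 1 fun p : ℝ × R3 => B 0 p.2 := (slice_space h.2.2.1 hz).comp contDiff_snd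
  have hF : ContDiffOn ℝ 1 (fun p : ℝ × R3 => fld E B (p.1 * ψ p.2) (p.1 • fderiv ℝ ψ p.2) p.2 - fld E B 0 0 p.2)
      (Ico 0 ρ ×ˢ univ) := by
    simp only [fld, zero_apply, sub_zero]
    exact ((((he.norm_sq ℝ).add (hb.norm_sq ℝ)).div_const 2).sub
      ((contDiff_fst.smul (hd.comp contDiff_snd)).contDiffOn.clm_apply (contDiff_cross3 he hb))).sub
      (((he0.norm_sq ℝ).add (hb0.norm_sq ℝ)).div_const 2).contDiffOn
  have hK : ∀ t ∈ Icc (0 : ℝ) 1, ∀ y ∉ tsupport ψ, fld E B (t * ψ y) (t • fderiv ℝ ψ y) y - fld E B 0 0 y = 0 := fun t _ y hy => by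
    rw [image_eq_zero_of_notMem_tsupport hy, fderiv_of_notMem_tsupport ℝ hy, mul_zero, smul_zero, sub_self]
  refine ⟨energy_cont volume hρ hF hc hK, ?_, fun r hr => ?_⟩
  · have h1 := (slice_space hF ⟨zero_le_one, hρ⟩).continuous.integrable_of_hasCompactSupport (μ := volume)
      (HasCompactSupport.intro hc (hK 1 ⟨zero_le_one, le_rfl⟩))
    simpa only [one_mul, one_smul] using h1
  have hr' : r ∈ Ico 0 ρ := ⟨hr.1.le, hr.2.trans hρ⟩
  have e1 : ContDiff ℝ 1 fun y => E (r * ψ y) y := slice_space he hr'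
  have b1 : ContDiff ℝ 1 fun y => B (r * ψ y) y := slice_space hb hr'
  have hj : Continuous fun y => currentDensity f (r * ψ y) y := by
    obtain ⟨R, hR⟩ := h.2.2.2.2.2.2.2.1 T' hT0 hT
    obtain ⟨C, -, hC⟩ := cur_le R
    refine (hC (fun p => f (r * ψ p.1) p.1 p.2) (fun _ => 0) ?_ continuous_const (fun _ => ⟨le_rfl, zero_le_one⟩)
      fun p hp => hR _ ⟨(hm r hr' _).1, (mul_le_of_le_one_left (h0 _).1 hr.2.le).trans (h0 _).2⟩ _ _ hp).1
    exact h.1.continuousOn.comp_continuous (f := fun p : R3 × R3 => (r * ψ p.1, p))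
      ((continuous_const.mul (hψ.continuous.comp continuous_fst)).prodMk continuous_id) fun p => ⟨hm r hr' _, trivial⟩
  have i1 : Integrable fun y => ψ y * (inner ℝ (E (r * ψ y) y) (curl3 (fun y => B (r * ψ y) y) y) -
      inner ℝ (B (r * ψ y) y) (curl3 (fun y => E (r * ψ y) y) y)) :=
    maxb_int hψ.continuous hc ((e1.continuous.inner (𝕜 := ℝ) (continuous_curl3 b1)).sub
      (b1.continuous.inner (𝕜 := ℝ) (continuous_curl3 e1)))
  have i2 : Integrable fun y => fderiv ℝ ψ y (cross3 (E (r * ψ y) y) (B (r * ψ y) y)) := by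
    refine (hd.continuous.clm_apply (continuous_cross3 e1.continuous b1.continuous)).integrable_of_hasCompactSupport ?_
    refine HasCompactSupport.intro hc fun y hy => ?_
    rw [fderiv_of_notMem_tsupport ℝ hy, zero_apply]
  have i3 := maxb_int hψ.continuous hc (e1.continuous.inner (𝕜 := ℝ) hj)
  convert energy_deriv volume hρ hF hc hK hr using 1
  simp only [deriv_sub_const, fld_pt h hT hψ1 h0 hr]
  rw [integral_sub (i1.sub' i2) i3, integral_sub i1 i2, poynting e1 b1 hψ1 hc, sub_self, zero_sub]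

end Crest.Agent.R106.Flux
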