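import Crest.Agent.R106.Flux.Fld

/-! Row 106, energy flux: the identity on compactly supported graphs and its Fatou form. -/

set_option autoImplicit false

noncomputable section

namespace Crest.Agent.R106.Flux

open MeasureTheory Set Filter Topology Crest.AnalysisR.VecCalc3 Crest.AnalysisR.PDE.RVM Crest.Agent.R106.U

variable {T T' : ℝ} {f₀ : R3 → R3 → ℝ} {E₀ B₀ : R3 → R3} {f : ℝ → R3 → R3 → ℝ} {E B : ℝ → R3 → R3} {ψ : R3 → ℝ}

/-- Conservation of energy on the graph of `ψ` (`kin_deriv`, `fld_deriv`, `constant_of_has_deriv_right_zero` or the mean value theorem;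
`fld E B 0 0` is integrable by `MemLp` at `t = 0`). -/
theorem graph_id (h : IsClassicalSolutionOn T f₀ E₀ B₀ f E B) (hT : T' < T) (hψ : ContDiff ℝ 2 ψ)
    (hc : HasCompactSupport ψ) (h0 : ∀ y, 0 ≤ ψ y ∧ ψ y ≤ T') :
    Integrable (fun z : R3 × R3 => kin f (ψ z.1) (fderiv ℝ ψ z.1) z.1 z.2) ∧
    Integrable (fun y => fld E B (ψ y) (fderiv ℝ ψ y) y) ∧
    (∫ z : R3 × R3, kin f (ψ z.1) (fderiv ℝ ψ z.1) z.1 z.2) + ∫ y, fld E B (ψ y) (fderiv ℝ ψ y) y = energy0 f₀ E₀ B₀ := by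
  obtain ⟨kc, ki, kd⟩ := kin_deriv h hT hψ h0
  obtain ⟨fc, fi, fd⟩ := fld_deriv h hT hψ hc h0
  have hT0 : (0 : ℝ) ∈ Ico 0 T := ⟨le_rfl, lt_of_le_of_lt ((h0 0).1.trans (h0 0).2) hT⟩
  obtain ⟨-, -, -, hf0, hE0, hB0, -, -, hL⟩ := h
  obtain ⟨hE2, hB2, -⟩ := hL 0 hT0
  have e00 : (fun y => fld E B 0 0 y) = fun y => (‖E₀ y‖ ^ 2 + ‖B₀ y‖ ^ 2) / 2 := by
    funext y
    simp [fld, hE0, hB0]
  have i00 : Integrable fun y => fld E B 0 0 y := by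
    rw [e00]
    rw [hE0] at hE2
    rw [hB0] at hB2
    exact (((memLp_two_iff_integrable_sq_norm hE2.1).1 hE2).add
      ((memLp_two_iff_integrable_sq_norm hB2.1).1 hB2)).div_const 2
  have fi' : Integrable fun y => fld E B (ψ y) (fderiv ℝ ψ y) y := by
    refine (fi.add i00).congr (ae_of_all _ fun y => ?_)
    simp
  refine ⟨ki, fi', ?_⟩
  set G : ℝ → ℝ := fun r => (∫ z : R3 × R3, kin f (r * ψ z.1) (r • fderiv ℝ ψ z.1) z.1 z.2) +
    ∫ y, (fld E B (r * ψ y) (r • fderiv ℝ ψ y) y - fld E B 0 0 y) with hG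
  have hGc : ContinuousOn G (Icc 0 1) := kc.add fc
  have hGd : ∀ r ∈ Ioo (0 : ℝ) 1, HasDerivAt G 0 r := fun r hr => by
    have := (kd r hr).add (fd r hr)
    rw [add_neg_cancel] at this
    exact this
  obtain ⟨c, -, hc'⟩ := exists_hasDerivAt_eq_slope G (fun _ => 0) zero_lt_one hGc hGd
  have h10 : G 1 = G 0 := by
    have : G 1 - G 0 = 0 := by simpa using hc'.symm
    linarith
  have g1 : G 1 = (∫ z : R3 × R3, kin f (ψ z.1) (fderiv ℝ ψ z.1) z.1 z.2) +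
      ((∫ y, fld E B (ψ y) (fderiv ℝ ψ y) y) - ∫ y, fld E B 0 0 y) := by
    simp only [hG, one_mul, one_smul]
    rw [integral_sub fi' i00]
  have g0 : G 0 = ∫ z : R3 × R3, gam z.2 * f₀ z.1 z.2 := by
    simp [hG, kin, hf0]
  rw [energy0, ← e00]
  linarith

/-- generic Fatou inequality on a set -/
theorem fatou_set {α : Type*} [MeasurableSpace α] {μ : Measure α} {g : ℕ → α → ℝ} {G : α → ℝ} {S : Set α} {c : ℝ}
    (hS : MeasurableSet S) (hi : ∀ k, Integrable (g k) μ) (h0 : ∀ k x, 0 ≤ g k x) (hb : ∀ k, ∫ x, g k x ∂μ ≤ c)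
    (hl : ∀ x ∈ S, Tendsto (fun k => g k x) atTop (𝓝 (G x))) :
    ∫⁻ x in S, ENNReal.ofReal (G x) ∂μ ≤ ENNReal.ofReal c := by
  have e : ∫⁻ x in S, ENNReal.ofReal (G x) ∂μ = ∫⁻ x in S, liminf (fun k => ENNReal.ofReal (g k x)) atTop ∂μ := by
    refine setLIntegral_congr_fun hS fun x hx => ?_
    exact ((ENNReal.tendsto_ofReal (hl x hx)).liminf_eq).symm
  rw [e]
  refine (lintegral_liminf_le' fun k => ?_).trans ?_
  · exact (hi k).aemeasurable.ennreal_ofReal.restrict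
  · refine liminf_le_of_frequently_le' (Frequently.of_forall fun k => ?_)
    calc ∫⁻ x in S, ENNReal.ofReal (g k x) ∂μ ≤ ∫⁻ x, ENNReal.ofReal (g k x) ∂μ := setLIntegral_le_lintegral _ _
      _ = ENNReal.ofReal (∫ x, g k x ∂μ) :=
        (ofReal_integral_eq_lintegral_ofReal (hi k) (Eventually.of_forall (h0 k))).symm
      _ ≤ ENNReal.ofReal c := ENNReal.ofReal_le_ofReal (hb k)

/-- convergence of a `C¹` function along a sequence of times -/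
theorem tendsto_time {X Y : Type*} [NormedAddCommGroup X] [NormedSpace ℝ X] [NormedAddCommGroup Y] [NormedSpace ℝ Y]
    {F : ℝ × X → Y} (hF : ContDiffOn ℝ 1 F (Ico 0 T ×ˢ univ)) (hT : T' < T) {a : ℕ → ℝ} {b : ℝ}
    (ha : ∀ k, 0 ≤ a k ∧ a k ≤ T') (hab : Tendsto a atTop (𝓝 b)) (x : X) :
    Tendsto (fun k => F (a k, x)) atTop (𝓝 (F (b, x))) := by
  have hb0 : 0 ≤ b := ge_of_tendsto' hab fun k => (ha k).1
  have hb1 : b ≤ T' := le_of_tendsto' hab fun k => (ha k).2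
  have hm : (b, x) ∈ Ico 0 T ×ˢ (univ : Set X) := ⟨⟨hb0, hb1.trans_lt hT⟩, mem_univ _⟩
  refine (hF.continuousOn _ hm).tendsto.comp ?_
  refine tendsto_nhdsWithin_iff.2 ⟨hab.prodMk_nhds tendsto_const_nhds, Eventually.of_forall fun k => ?_⟩
  exact ⟨⟨(ha k).1, (ha k).2.trans_lt hT⟩, mem_univ _⟩

/-- Fatou (`lintegral_liminf_le`, `graph_id`, `kin_nonneg`, `fld_nonneg`, `ofReal_integral_eq_lintegral_ofReal`; continuity of
`f, E, B` within `Ico 0 T ×ˢ univ`). -/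
theorem graph_lim (h : IsClassicalSolutionOn T f₀ E₀ B₀ f E B) (hpos : ∀ t ∈ Ico 0 T, ∀ x v, 0 ≤ f t x v) (hT : T' < T)
    {ψ : ℕ → R3 → ℝ} (hψ : ∀ k, ContDiff ℝ 2 (ψ k)) (hc : ∀ k, HasCompactSupport (ψ k))
    (h0 : ∀ k y, 0 ≤ ψ k y ∧ ψ k y ≤ T') (h1 : ∀ k y, ‖fderiv ℝ (ψ k) y‖ ≤ 1) {S : Set R3} (hS : MeasurableSet S)
    {φ : R3 → ℝ} {p : R3 → R3 →L[ℝ] ℝ} (hφ : ∀ y ∈ S, Tendsto (fun k => ψ k y) atTop (𝓝 (φ y)))
    (hp : ∀ y ∈ S, Tendsto (fun k => fderiv ℝ (ψ k) y) atTop (𝓝 (p y))) :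
    ∫⁻ z : R3 × R3 in S ×ˢ univ, ENNReal.ofReal (kin f (φ z.1) (p z.1) z.1 z.2) ≤ ENNReal.ofReal (energy0 f₀ E₀ B₀) ∧
    ∫⁻ y in S, ENNReal.ofReal (fld E B (φ y) (p y) y) ≤ ENNReal.ofReal (energy0 f₀ E₀ B₀) := by
  have hI := fun k => graph_id h hT (hψ k) (hc k) (h0 k)
  have hk0 : ∀ k (z : R3 × R3), 0 ≤ kin f (ψ k z.1) (fderiv ℝ (ψ k) z.1) z.1 z.2 := fun k z =>
    kin_nonneg (h1 k z.1) (hpos _ ⟨(h0 k z.1).1, (h0 k z.1).2.trans_lt hT⟩ _ _)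
  have hf0 : ∀ k y, 0 ≤ fld E B (ψ k y) (fderiv ℝ (ψ k) y) y := fun k y => fld_nonneg (h1 k y)
  have app : ∀ y ∈ S, ∀ {u : ℕ → R3} {w : R3}, Tendsto u atTop (𝓝 w) →
      Tendsto (fun k => fderiv ℝ (ψ k) y (u k)) atTop (𝓝 (p y w)) := fun y hy u w hu =>
    ((isBoundedBilinearMap_apply (𝕜 := ℝ) (E := R3) (F := ℝ)).continuous.tendsto (p y, w)).comp
      ((hp y hy).prodMk_nhds hu)
  constructor
  · refine fatou_set (hS.prod MeasurableSet.univ) (fun k => (hI k).1) hk0 (fun k => ?_) fun z hz => ?_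
    · have : 0 ≤ ∫ y, fld E B (ψ k y) (fderiv ℝ (ψ k) y) y := integral_nonneg (hf0 k)
      linarith [(hI k).2.2]
    · unfold kin
      exact ((tendsto_const_nhds.sub (app z.1 hz.1 tendsto_const_nhds)).const_mul _).mul
        (tendsto_time h.1 hT (fun k => h0 k z.1) (hφ z.1 hz.1) z)
  · refine fatou_set hS (fun k => (hI k).2.1) hf0 (fun k => ?_) fun y hy => ?_
    · have : 0 ≤ ∫ z : R3 × R3, kin f (ψ k z.1) (fderiv ℝ (ψ k) z.1) z.1 z.2 := integral_nonneg (hk0 k)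
      linarith [(hI k).2.2]
    · unfold fld
      have hE := tendsto_time h.2.1 hT (fun k => h0 k y) (hφ y hy) y
      have hB := tendsto_time h.2.2.1 hT (fun k => h0 k y) (hφ y hy) y
      have hX := tendsto_time (contDiff_cross3 h.2.1 h.2.2.1) hT (fun k => h0 k y) (hφ y hy) y
      exact (((hE.norm.pow 2).add (hB.norm.pow 2)).div_const 2).sub (app y hy hX)

end Crest.Agent.R106.Flux
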