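import Crest.Agent.R106.Flux.Defs

/-! Row 106, energy flux: the kinetic part along the family of graphs `t = r ψ(y)`. -/

set_option autoImplicit false

noncomputable section

namespace Crest.Agent.R106.Flux

open MeasureTheory Set Filter Topology Crest.AnalysisR.VecCalc3 Crest.AnalysisR.PDE.RVM Crest.Agent.R106.U

theorem kina_mul {a k : R3 → ℝ} (ha : ContDiff ℝ 1 a) (hk : ContDiff ℝ 1 k) (x e : R3) :
    fderiv ℝ (fun y => a y * k y) x e = fderiv ℝ a x e * k x + a x * fderiv ℝ k x e := by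
  have h1 : HasFDerivAt a (fderiv ℝ a x) x := (ha.differentiable one_ne_zero _).hasFDerivAt
  have h2 : HasFDerivAt k (fderiv ℝ k x) x := (hk.differentiable one_ne_zero _).hasFDerivAt
  rw [(h1.fun_mul h2).fderiv]
  simp only [add_apply, smul_apply, smul_eq_mul]
  ring

theorem kina_int {a G : R3 × R3 → ℝ} (ha : ContDiff ℝ 1 a) (hG : ContDiff ℝ 1 G) (hc : HasCompactSupport G) (e : R3 × R3) :
    Integrable (fun p => fderiv ℝ (fun q => a q * G q) p e) ∧ ∫ p, fderiv ℝ (fun q => a q * G q) p e = 0 := by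
  have : (volume : Measure (R3 × R3)).IsAddHaarMeasure := by rw [Measure.volume_eq_prod]; infer_instance
  have h1 : ContDiff ℝ 1 fun q => a q * G q := ha.mul hG
  have h2 : HasCompactSupport fun q => a q * G q := hc.mul_left (f := a)
  refine ⟨Continuous.integrable_of_hasCompactSupport ?_ (h2.fderiv_apply ℝ e), int_fderiv_zero volume h1 h2 e⟩
  exact (h1.continuous_fderiv one_ne_zero).clm_apply continuous_const

/-- Integration by parts at fixed `r`: `int_fderiv_zero` on `R3 × R3` for `gam v * relVel v i * ψ y * h y v` in the direction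
`(e_i, 0)` and for `gam v * ψ y * (a y i + cross3 (relVel v) (b y) i) * h y v` in the direction `(0, e_i)`; `pderiv_gam`,
`div_cross_relVel`, `u · (u × b) = 0`; Fubini (`integral_prod`, `integral_inner`). -/
theorem kin_ibp {h : R3 → R3 → ℝ} (hh : ContDiff ℝ 1 fun z : R3 × R3 => h z.1 z.2)
    (hc : HasCompactSupport fun z : R3 × R3 => h z.1 z.2) {a b : R3 → R3} (ha : ContDiff ℝ 1 a) (hb : ContDiff ℝ 1 b)
    {ψ : R3 → ℝ} (hψ : ContDiff ℝ 1 ψ) :
    ∫ z : R3 × R3, -(gam z.2 * (fderiv ℝ ψ z.1 (relVel z.2) * h z.1 z.2 + ψ z.1 * tr a b h z.1 z.2)) =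
      ∫ y, ψ y * inner ℝ (a y) (∫ v, h y v • relVel v) := by
  have hu : ContDiff ℝ 1 fun p : R3 × R3 => relVel p.2 := contDiff_relVel.comp contDiff_snd
  have hg : ContDiff ℝ 1 fun p : R3 × R3 => gam p.2 := contDiff_gam.comp contDiff_snd
  have hp : ContDiff ℝ 1 fun p : R3 × R3 => ψ p.1 := hψ.comp contDiff_fst
  have hA : ∀ i : Fin 3, ContDiff ℝ 1 fun p : R3 × R3 => gam p.2 * relVel p.2 i * ψ p.1 := fun i =>
    (hg.mul (vlab_coord hu i)).mul hp
  have hB : ∀ i : Fin 3, ContDiff ℝ 1 fun p : R3 × R3 => ψ p.1 * (gam p.2 * (a p.1 i + cross3 (relVel p.2) (b p.1) i)) := fun i =>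
    hp.mul (hg.mul ((vlab_coord (ha.comp contDiff_fst) i).add (vlab_cross hu (hb.comp contDiff_fst) i)))
  have h1 := fun i : Fin 3 => kina_int (hA i) hh hc (EuclideanSpace.single i 1, 0)
  have h2 := fun i : Fin 3 => kina_int (hB i) hh hc (0, EuclideanSpace.single i 1)
  have key : (fun z : R3 × R3 => -(gam z.2 * (fderiv ℝ ψ z.1 (relVel z.2) * h z.1 z.2 + ψ z.1 * tr a b h z.1 z.2))) = fun p =>
      ψ p.1 * inner ℝ (a p.1) (h p.1 p.2 • relVel p.2) -
      (∑ i : Fin 3, fderiv ℝ (fun q : R3 × R3 => gam q.2 * relVel q.2 i * ψ q.1 * h q.1 q.2) p (EuclideanSpace.single i 1, 0) +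
      ∑ i : Fin 3, fderiv ℝ (fun q : R3 × R3 => ψ q.1 * (gam q.2 * (a q.1 i + cross3 (relVel q.2) (b q.1) i)) * h q.1 q.2) p
        (0, EuclideanSpace.single i 1)) := by
    funext ⟨x, v⟩
    have hx : ContDiff ℝ 1 fun y => h y v := hh.comp (contDiff_prodMk_left v)
    have hv : ContDiff ℝ 1 fun w => h x w := hh.comp (contDiff_prodMk_right x)
    have e1 : ∀ i : Fin 3, fderiv ℝ (fun q : R3 × R3 => gam q.2 * relVel q.2 i * ψ q.1 * h q.1 q.2) (x, v)
        (EuclideanSpace.single i 1, 0) = gam v * relVel v i * pderiv ψ i x * h x v +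
          gam v * relVel v i * ψ x * pderiv (fun y => h y v) i x := fun i => by
      rw [vlab_slice1 ((hA i).mul hh), kina_mul (a := fun y => gam v * relVel v i * ψ y) (contDiff_const.mul hψ) hx,
        kina_mul (a := fun _ => gam v * relVel v i) contDiff_const hψ]
      simp [pderiv]
    have e2 : ∀ i : Fin 3, fderiv ℝ (fun q : R3 × R3 => ψ q.1 * (gam q.2 * (a q.1 i + cross3 (relVel q.2) (b q.1) i)) * h q.1 q.2)
        (x, v) (0, EuclideanSpace.single i 1) =
          ψ x * (relVel v i * (a x i + cross3 (relVel v) (b x) i) + gam v * pderiv (fun w => cross3 (relVel w) (b x) i) i v) * h x v +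
          ψ x * (gam v * (a x i + cross3 (relVel v) (b x) i)) * pderiv (fun w => h x w) i v := fun i => by
      have c1 : ContDiff ℝ 1 fun w => a x i + cross3 (relVel w) (b x) i :=
        contDiff_const.add (vlab_cross contDiff_relVel contDiff_const i)
      rw [vlab_slice2 ((hB i).mul hh), kina_mul (a := fun w => ψ x * (gam w * (a x i + cross3 (relVel w) (b x) i)))
        (contDiff_const.mul (contDiff_gam.mul c1)) hv, kina_mul (a := fun _ => ψ x) contDiff_const (contDiff_gam.mul c1),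
        kina_mul contDiff_gam c1, fderiv_const_add, ← pderiv_gam v i]
      simp [pderiv]
    have e3 := div_cross_relVel (b x) v
    have e4 : inner ℝ (a x) (h x v • relVel v) = h x v * (a x 0 * relVel v 0 + a x 1 * relVel v 1 + a x 2 * relVel v 2) := by
      rw [inner_smul_right]
      simp [PiLp.inner_apply, Fin.sum_univ_three, mul_comm]
    have e5 : relVel v 0 * cross3 (relVel v) (b x) 0 + relVel v 1 * cross3 (relVel v) (b x) 1 +
        relVel v 2 * cross3 (relVel v) (b x) 2 = 0 := by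
      simp [cross3]
      ring
    simp only [e1, e2, e4, tr, maxa_fd ψ x (relVel v), Fin.sum_univ_three] at e3 ⊢
    linear_combination (ψ x * gam v * h x v) * e3 + (ψ x * h x v) * e5
  have i1 := integrable_finsetSum Finset.univ fun i _ => (h1 i).1
  have i2 := integrable_finsetSum Finset.univ fun i _ => (h2 i).1
  have c0 : Continuous fun p : R3 × R3 => h p.1 p.2 • relVel p.2 := hh.continuous.smul hu.continuous
  have s0 : HasCompactSupport fun p : R3 × R3 => h p.1 p.2 • relVel p.2 := hc.smul_right (f' := fun p : R3 × R3 => relVel p.2)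
  have i0 : Integrable fun p : R3 × R3 => ψ p.1 * inner ℝ (a p.1) (h p.1 p.2 • relVel p.2) := by
    refine Continuous.integrable_of_hasCompactSupport (hp.continuous.mul ((ha.continuous.comp continuous_fst).inner c0)) ?_
    refine hc.mono fun p hp => ?_
    simp only [Function.mem_support] at hp ⊢
    intro h0
    exact hp (by rw [h0, zero_smul, inner_zero_right, mul_zero])
  rw [key, integral_sub i0 (i1.fun_add i2), integral_add i1 i2, integral_finsetSum _ fun i _ => (h1 i).1,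
    integral_finsetSum _ fun i _ => (h2 i).1]
  simp only [fun i => (h1 i).2, fun i => (h2 i).2, Finset.sum_const_zero, add_zero, sub_zero]
  rw [Measure.volume_eq_prod] at i0 ⊢
  rw [integral_prod _ i0]
  refine integral_congr_ae (Eventually.of_forall fun y => ?_)
  have i3 : Integrable fun v => h y v • relVel v := by
    refine (c0.comp (Continuous.prodMk_right y)).integrable_of_hasCompactSupport ?_
    refine HasCompactSupport.intro (s0.isCompact.image continuous_snd) fun v hv => ?_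
    by_contra h0
    exact hv ⟨(y, v), subset_tsupport _ h0, rfl⟩
  simp only
  rw [integral_const_mul, integral_inner i3]

variable {T T' : ℝ} {f₀ : R3 → R3 → ℝ} {E₀ B₀ : R3 → R3} {f : ℝ → R3 → R3 → ℝ} {E B : ℝ → R3 → R3} {ψ : R3 → ℝ}

/-- Pointwise derivative in `r`. If `ψ y = 0` then `fderiv ℝ ψ y = 0` (minimum) and both sides vanish. Otherwise `0 < r ψ y < T`, `f` is
differentiable at `(r ψ y, y, v)`, chain rule and the Vlasov equation of `EquationsHoldAt`. -/
theorem kin_pt (h : IsClassicalSolutionOn T f₀ E₀ B₀ f E B) (hT : T' < T) (hψ : ContDiff ℝ 1 ψ)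
    (h0 : ∀ y, 0 ≤ ψ y ∧ ψ y ≤ T') {r : ℝ} (hr : r ∈ Ioo (0 : ℝ) 1) (y v : R3) :
    deriv (fun s => kin f (s * ψ y) (s • fderiv ℝ ψ y) y v) r =
      -(gam v * (fderiv ℝ ψ y (relVel v) * f (r * ψ y) y v +
        ψ y * tr (fun y => E (r * ψ y) y) (fun y => B (r * ψ y) y) (fun y v => f (r * ψ y) y v) y v)) := by
  rcases (h0 y).1.eq_or_lt with hy | hy
  · have h1 : fderiv ℝ ψ y = 0 :=
      IsLocalMin.fderiv_eq_zero (Filter.Eventually.of_forall fun z => hy ▸ (h0 z).1)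
    simp [kin, h1, ← hy]
  have ht : r * ψ y ∈ Ioo 0 T := ⟨mul_pos hr.1 hy, by nlinarith [hr.2, (h0 y).2]⟩
  have hF : DifferentiableAt ℝ (fun p : ℝ × R3 × R3 => f p.1 p.2.1 p.2.2) (r * ψ y, y, v) :=
    (h.1.contDiffAt (prod_mem_nhds (Ico_mem_nhds ht.1 ht.2) Filter.univ_mem)).differentiableAt one_ne_zero
  obtain ⟨D, hD⟩ : ∃ D, HasFDerivAt (fun p : ℝ × R3 × R3 => f p.1 p.2.1 p.2.2) D (r * ψ y, y, v) := ⟨_, hF.hasFDerivAt⟩
  have hp : HasFDerivAt ψ (fderiv ℝ ψ y) y := (hψ.differentiable one_ne_zero y).hasFDerivAt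
  have h1 : HasDerivAt (fun s => f s y v) (D (1, 0)) (r * ψ y) :=
    hD.comp_hasDerivAt (f := fun s : ℝ => (s, y, v)) (r * ψ y) ((hasDerivAt_id _).prodMk (hasDerivAt_const _ _))
  have h2 : ∀ i, pderiv (fun x => f (r * ψ y) x v) i y = D (0, EuclideanSpace.single i 1, 0) := fun i => by
    have h3 := hD.comp (f := fun x : R3 => (r * ψ y, x, v)) y
      ((hasFDerivAt_const _ _).prodMk ((hasFDerivAt_id y).prodMk (hasFDerivAt_const _ _)))
    rw [pderiv, show fderiv ℝ (fun x => f (r * ψ y) x v) y = _ from h3.fderiv]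
    rfl
  have h4 : ∀ i, pderiv (fun x => f (r * ψ x) x v) i y =
      r * pderiv ψ i y * D (1, 0) + D (0, EuclideanSpace.single i 1, 0) := fun i => by
    have h3 := hD.comp (f := fun x : R3 => (r * ψ x, x, v)) y
      ((hp.const_mul r).prodMk ((hasFDerivAt_id y).prodMk (hasFDerivAt_const _ _)))
    rw [pderiv, show fderiv ℝ (fun x => f (r * ψ x) x v) y = _ from h3.fderiv, ← smul_eq_mul _ (D (1, 0)), ← map_smul,
      ← map_add]
    simp [pderiv]
  have h5 := (h.2.2.2.2.2.2.1 _ ht.1 ht.2 y).1 v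
  have h6 : HasDerivAt (fun s => f (s * ψ y) y v) (D (1, 0) * (1 * ψ y)) r :=
    HasDerivAt.comp (h₂ := fun s => f s y v) (h := fun s => s * ψ y) r h1 ((hasDerivAt_id r).mul_const (ψ y))
  have h7 := (((((hasDerivAt_id r).mul_const (fderiv ℝ ψ y (relVel v))).const_sub 1).const_mul (gam v)).mul h6).deriv
  rw [h1.deriv] at h5
  simp only [h2, Fin.sum_univ_three] at h5
  refine Eq.trans (Eq.trans rfl h7) ?_
  simp only [tr, h4, Fin.sum_univ_three, maxa_fd ψ y (relVel v), id]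
  linear_combination (gam v * ψ y) * h5

/-- the graphs `r ψ` stay in `[0, T)` for `r < ρ`, some `ρ > 1` (`ρ = (T + 1) / (T' + 1)`) -/
theorem exists_rho (hT : T' < T) (h0 : ∀ y, 0 ≤ ψ y ∧ ψ y ≤ T') :
    ∃ ρ : ℝ, 1 < ρ ∧ ∀ r ∈ Ico 0 ρ, ∀ y, r * ψ y ∈ Ico 0 T := by
  have hT0 : 0 ≤ T' := (h0 0).1.trans (h0 0).2
  have h1 : 0 < T' + 1 := by linarith
  refine ⟨(T + 1) / (T' + 1), (one_lt_div h1).2 (by linarith), fun r hr y => ⟨mul_nonneg hr.1 (h0 y).1, ?_⟩⟩
  have h2 : r * (T' + 1) < T + 1 := (lt_div_iff₀ h1).1 hr.2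
  have h3 : r * ψ y ≤ r * T' := mul_le_mul_of_nonneg_left (h0 y).2 hr.1
  rcases le_or_gt 1 r with h4 | h4
  · nlinarith
  · have h5 : r * T' ≤ T' := by nlinarith [hr.1]
    linarith

/-- `energy_cont`, `energy_deriv` (with `T := ρ`, `T' := 1`), `kin_pt`, `kin_ibp` -/
theorem kin_deriv (h : IsClassicalSolutionOn T f₀ E₀ B₀ f E B) (hT : T' < T) (hψ : ContDiff ℝ 2 ψ)
    (h0 : ∀ y, 0 ≤ ψ y ∧ ψ y ≤ T') :
    ContinuousOn (fun r => ∫ z : R3 × R3, kin f (r * ψ z.1) (r • fderiv ℝ ψ z.1) z.1 z.2) (Icc 0 1) ∧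
    Integrable (fun z : R3 × R3 => kin f (ψ z.1) (fderiv ℝ ψ z.1) z.1 z.2) ∧
    ∀ r ∈ Ioo (0 : ℝ) 1, HasDerivAt (fun r => ∫ z : R3 × R3, kin f (r * ψ z.1) (r • fderiv ℝ ψ z.1) z.1 z.2)
      (∫ y, ψ y * inner ℝ (E (r * ψ y) y) (currentDensity f (r * ψ y) y)) r := by
  haveI : (volume : Measure (R3 × R3)).IsAddHaarMeasure := Measure.prod.instIsAddHaarMeasure _ _
  obtain ⟨ρ, hρ, hm⟩ := exists_rho hT h0
  have hT0 : 0 ≤ T' := (h0 0).1.trans (h0 0).2
  obtain ⟨R, hR⟩ := h.2.2.2.2.2.2.2.1 T' hT0 hT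
  have hψ1 : ContDiff ℝ 1 ψ := hψ.of_le (by norm_num)
  have hD : ContDiff ℝ 1 (fderiv ℝ ψ) := hψ.fderiv_right (by norm_num)
  have hg : ContDiff ℝ 1 fun p : ℝ × R3 × R3 => (p.1 * ψ p.2.1, p.2) :=
    (contDiff_fst.mul (hψ1.comp (contDiff_fst.comp contDiff_snd))).prodMk contDiff_snd
  have hf : ContDiffOn ℝ 1 (fun p : ℝ × R3 × R3 => f (p.1 * ψ p.2.1) p.2.1 p.2.2) (Ico 0 ρ ×ˢ univ) :=
    h.1.comp hg.contDiffOn fun p hp => ⟨hm p.1 hp.1 _, mem_univ _⟩
  have hc : ContDiff ℝ 1 fun p : ℝ × R3 × R3 => gam p.2.2 * (1 - (p.1 • fderiv ℝ ψ p.2.1) (relVel p.2.2)) :=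
    (contDiff_gam.comp (contDiff_snd.comp contDiff_snd)).mul (contDiff_const.sub
      ((contDiff_fst.smul (hD.comp (contDiff_fst.comp contDiff_snd))).clm_apply
        (contDiff_relVel.comp (contDiff_snd.comp contDiff_snd))))
  have hF : ContDiffOn ℝ 1 (fun p : ℝ × R3 × R3 => kin f (p.1 * ψ p.2.1) (p.1 • fderiv ℝ ψ p.2.1) p.2.1 p.2.2)
      (Ico 0 ρ ×ˢ univ) := hc.contDiffOn.mul hf
  have hK : IsCompact (Metric.closedBall (0 : R3) R ×ˢ Metric.closedBall (0 : R3) R) :=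
    (isCompact_closedBall _ _).prod (isCompact_closedBall _ _)
  have hz : ∀ r ∈ Icc (0 : ℝ) 1, ∀ z : R3 × R3, z ∉ Metric.closedBall (0 : R3) R ×ˢ Metric.closedBall (0 : R3) R →
      f (r * ψ z.1) z.1 z.2 = 0 := fun r hr z hz => by
    refine hR _ ⟨mul_nonneg hr.1 (h0 _).1, ?_⟩ _ _ ?_
    · exact (mul_le_of_le_one_left (h0 _).1 hr.2).trans (h0 _).2
    · by_contra hn
      rw [not_or, not_lt, not_lt] at hn
      exact hz ⟨mem_closedBall_zero_iff.2 hn.1, mem_closedBall_zero_iff.2 hn.2⟩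
  have hz' : ∀ r ∈ Icc (0 : ℝ) 1, ∀ z : R3 × R3, z ∉ Metric.closedBall (0 : R3) R ×ˢ Metric.closedBall (0 : R3) R →
      (fun p : ℝ × R3 × R3 => kin f (p.1 * ψ p.2.1) (p.1 • fderiv ℝ ψ p.2.1) p.2.1 p.2.2) (r, z) = 0 := fun r hr z hz1 => by
    simp only [kin, hz r hr z hz1, mul_zero]
  refine ⟨energy_cont volume hρ hF hK hz', ?_, fun r hr => ?_⟩
  · have h1 := (slice_space hF (t := 1) ⟨zero_le_one, hρ⟩).continuous
    simp only [one_mul, one_smul] at h1
    refine h1.integrable_of_hasCompactSupport (HasCompactSupport.intro hK fun z hz1 => ?_)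
    have h2 := hz 1 ⟨zero_le_one, le_rfl⟩ z hz1
    rw [one_mul] at h2
    simp only [kin, h2, mul_zero]
  · have hr' : r ∈ Ico 0 ρ := ⟨hr.1.le, hr.2.trans hρ⟩
    have h1 := energy_deriv volume hρ hF hK hz' hr
    have hg2 : ContDiff ℝ 1 fun y : R3 => (r * ψ y, y) := (contDiff_const.mul hψ1).prodMk contDiff_id
    have ha : ContDiff ℝ 1 fun y => E (r * ψ y) y := h.2.1.comp_contDiff hg2 fun y => ⟨hm r hr' y, mem_univ _⟩
    have hb : ContDiff ℝ 1 fun y => B (r * ψ y) y := h.2.2.1.comp_contDiff hg2 fun y => ⟨hm r hr' y, mem_univ _⟩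
    have h2 := kin_ibp (h := fun y v => f (r * ψ y) y v) (slice_space hf hr')
      (HasCompactSupport.intro hK fun z hz1 => hz r ⟨hr.1.le, hr.2.le⟩ z hz1) ha hb hψ1
    simp only [kin_pt h hT hψ1 h0 hr] at h1
    rw [h2] at h1
    exact h1

end Crest.Agent.R106.Flux
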