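import Crest.Agent.R106.Flux.Graph
import Crest.Agent.R106.Flux.Approx

/-! Row 106, energy flux: final statements (energy at a fixed time, backward light cones, null planes). -/

set_option autoImplicit false

noncomputable section

namespace Crest.Agent.R106.Flux

open MeasureTheory Set Filter Topology Crest.AnalysisR.VecCalc3 Crest.AnalysisR.PDE.RVM Crest.Agent.R106.U

variable {T T' : ℝ} {f₀ : R3 → R3 → ℝ} {E₀ B₀ : R3 → R3} {f : ℝ → R3 → R3 → ℝ} {E B : ℝ → R3 → R3}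

/-- flux through any `C²` graph of slope at most one -/
theorem flux_graph (h : IsClassicalSolutionOn T f₀ E₀ B₀ f E B) (hpos : ∀ t ∈ Ico 0 T, ∀ x v, 0 ≤ f t x v) (hT : T' < T)
    {φ : R3 → ℝ} (hφ : ContDiff ℝ 2 φ) (h1 : ∀ y, ‖fderiv ℝ φ y‖ ≤ 1) :
    ∫⁻ z : R3 × R3 in {y | 0 < φ y ∧ φ y < T'} ×ˢ univ, ENNReal.ofReal (kin f (φ z.1) (fderiv ℝ φ z.1) z.1 z.2) ≤
      ENNReal.ofReal (energy0 f₀ E₀ B₀) ∧
    ∫⁻ y in {y | 0 < φ y ∧ φ y < T'}, ENNReal.ofReal (fld E B (φ y) (fderiv ℝ φ y) y) ≤ ENNReal.ofReal (energy0 f₀ E₀ B₀) := by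
  rcases lt_or_ge T' 0 with h0 | h0
  · have e : {y | 0 < φ y ∧ φ y < T'} = ∅ := eq_empty_of_forall_notMem fun y hy => by
      have := hy.1; have := hy.2; linarith
    rw [e, empty_prod]
    simp
  obtain ⟨ψ, a1, a2, a3, a4, a5⟩ := approx_graph h0 hφ h1
  have hS : MeasurableSet {y | 0 < φ y ∧ φ y < T'} :=
    (isOpen_Ioo.preimage hφ.continuous : IsOpen (φ ⁻¹' Ioo 0 T')).measurableSet
  exact graph_lim h hpos hT a1 a2 a3 a4 hS (fun y hy => (a5 y hy.1 hy.2).1) fun y hy => (a5 y hy.1 hy.2).2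

/-- **energy at a fixed time** -/
theorem energy_le (h : IsClassicalSolutionOn T f₀ E₀ B₀ f E B) (hpos : ∀ t ∈ Ico 0 T, ∀ x v, 0 ≤ f t x v) {t : ℝ}
    (ht : t ∈ Ico 0 T) :
    ∫⁻ z : R3 × R3, ENNReal.ofReal (gam z.2 * f t z.1 z.2) ≤ ENNReal.ofReal (energy0 f₀ E₀ B₀) ∧
    ∫⁻ y, ENNReal.ofReal ((‖E t y‖ ^ 2 + ‖B t y‖ ^ 2) / 2) ≤ ENNReal.ofReal (energy0 f₀ E₀ B₀) := by
  have key : ∫⁻ z : R3 × R3 in (univ : Set R3) ×ˢ univ, ENNReal.ofReal (kin f t 0 z.1 z.2) ≤ ENNReal.ofReal (energy0 f₀ E₀ B₀) ∧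
      ∫⁻ y in (univ : Set R3), ENNReal.ofReal (fld E B t 0 y) ≤ ENNReal.ofReal (energy0 f₀ E₀ B₀) := by
    rcases ht.1.eq_or_lt with h0 | h0
    · subst h0
      exact graph_lim (ψ := fun _ _ => 0) (φ := fun _ => 0) (p := fun _ => 0) h hpos ht.2 (fun _ => contDiff_const)
        (fun _ => HasCompactSupport.zero) (fun _ _ => ⟨le_rfl, le_rfl⟩) (fun _ _ => by simp) MeasurableSet.univ
        (fun _ _ => tendsto_const_nhds) fun _ _ => by simp
    · have h2 := ht.2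
      have := flux_graph (T' := (t + T) / 2) (φ := fun _ => t) h hpos (by linarith) contDiff_const fun _ => by simp
      have e : {y : R3 | 0 < t ∧ t < (t + T) / 2} = univ := eq_univ_of_forall fun y => ⟨h0, by linarith⟩
      simpa only [e, fderiv_fun_const, Pi.zero_apply] using this
  simpa only [univ_prod_univ, Measure.restrict_univ, kin, fld, zero_apply, sub_zero, mul_one] using key

/-- **backward light cone** with vertex `(s, x)`, `n = (x - y) / ‖x - y‖` -/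
theorem flux_cone (h : IsClassicalSolutionOn T f₀ E₀ B₀ f E B) (hpos : ∀ t ∈ Ico 0 T, ∀ x v, 0 ≤ f t x v) {s : ℝ}
    (hs : s ∈ Ico 0 T) (x : R3) :
    ∫⁻ z : R3 × R3 in Metric.ball x s ×ˢ univ, ENNReal.ofReal (gam z.2 *
        (1 - inner ℝ (‖x - z.1‖⁻¹ • (x - z.1)) (relVel z.2)) * f (s - ‖x - z.1‖) z.1 z.2) ≤ ENNReal.ofReal (energy0 f₀ E₀ B₀) ∧
    ∫⁻ y in Metric.ball x s, ENNReal.ofReal ((‖E (s - ‖x - y‖) y‖ ^ 2 + ‖B (s - ‖x - y‖) y‖ ^ 2) / 2 -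
        inner ℝ (‖x - y‖⁻¹ • (x - y)) (cross3 (E (s - ‖x - y‖) y) (B (s - ‖x - y‖) y))) ≤ ENNReal.ofReal (energy0 f₀ E₀ B₀) := by
  obtain ⟨ψ, a1, a2, a3, a4, a5⟩ := approx_cone s x
  rw [max_eq_left hs.1] at a3
  have key := graph_lim h hpos hs.2 a1 a2 a3 a4 (measurableSet_ball.diff (measurableSet_singleton x))
    (fun y hy => (a5 y hy).1) fun y hy => (a5 y hy).2
  have e1 : (Metric.ball x s \ {x} : Set R3) =ᵐ[volume] Metric.ball x s := sdiff_null_ae_eq_self (measure_singleton x)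
  have e2 : ((Metric.ball x s \ {x}) ×ˢ univ : Set (R3 × R3)) =ᵐ[volume] (Metric.ball x s ×ˢ univ : Set (R3 × R3)) := by
    rw [Measure.volume_eq_prod]
    exact Measure.set_prod_ae_eq e1 (ae_eq_refl _)
  rw [Measure.restrict_congr_set e1, Measure.restrict_congr_set e2] at key
  exact key

/-- **null (or space-like) plane** `t = c + e · y`, `‖e‖ ≤ 1` -/
theorem flux_plane (h : IsClassicalSolutionOn T f₀ E₀ B₀ f E B) (hpos : ∀ t ∈ Ico 0 T, ∀ x v, 0 ≤ f t x v) (hT : T' < T)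
    (c : ℝ) {e : R3} (he : ‖e‖ ≤ 1) :
    ∫⁻ z : R3 × R3 in {y | 0 < c + inner ℝ e y ∧ c + inner ℝ e y < T'} ×ˢ univ, ENNReal.ofReal (gam z.2 *
        (1 - inner ℝ e (relVel z.2)) * f (c + inner ℝ e z.1) z.1 z.2) ≤ ENNReal.ofReal (energy0 f₀ E₀ B₀) ∧
    ∫⁻ y in {y | 0 < c + inner ℝ e y ∧ c + inner ℝ e y < T'}, ENNReal.ofReal
        ((‖E (c + inner ℝ e y) y‖ ^ 2 + ‖B (c + inner ℝ e y) y‖ ^ 2) / 2 -
        inner ℝ e (cross3 (E (c + inner ℝ e y) y) (B (c + inner ℝ e y) y))) ≤ ENNReal.ofReal (energy0 f₀ E₀ B₀) := by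
  have hd : ∀ y, fderiv ℝ (fun y : R3 => c + inner ℝ e y) y = innerSL ℝ e := fun y =>
    ((innerSL ℝ e).hasFDerivAt.const_add c).fderiv
  have key := flux_graph (φ := fun y => c + inner ℝ e y) h hpos hT (contDiff_const.add (innerSL ℝ e).contDiff) fun y => by
    rw [hd, innerSL_apply_norm]; exact he
  simp only [hd] at key
  exact key

end Crest.Agent.R106.Flux
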